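import Mathlib
import Vale.Agent.H27.PoissonFact
import Vale.Agent.H4.P171.XiBridge
import Vale.Agent.H72.P171.XiScale
import Vale.Agent.H79.LP.Cells
import Vale.Agent.H96.P171.Defs
import Vale.Agent.H96.P171.Meas.Mono
import Vale.Agent.H96.P171.Bounds
import Vale.Agent.H96.P171.Fekete
import Vale.Agent.H96.P171.Growth

/-!
# P171 moonshot, LP part, step LP4: the Lebowitz-Penrose claim (helper22)

Input: the conclusion of the measure step LP2 (for every number `K` of cells per side),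
`Xi_(K l)(μ, t) ≤ Xihat ^ ((K+2)^3)`, where `Xihat` is the partition function of one cell
`[0,l)^3` with one-body factor `e^μ e^γ` and pair factor `e^γ` times the pair factor of `t2`.

Output (`lp4_ennreal`, `lp4_real`, `lp4_hclaim`):
`Fp μ t ≤ l^(-3) log ∑_j exp(-γ j^2 + (l+1)^3 Fp (μ + 2 γ j) t2)`.

Steps: the `j`-trick (`Xi_jtrick`), each term is the partition function of the cell with
chemical potential `μ + 2 γ j`, which is at most that of the closed box of side `l`, which is at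
most `exp((l+1)^3 Fp)` (`logXi_le_Fp`); then logarithms and `K → ∞` along `L = K l`
(`tendsto_pressure`).  The real series is summable by the quadratic growth bound (`growth`).
-/

open MeasureTheory Filter Topology
open scoped ENNReal

namespace Vale.Agent.H22.P171

open Vale.Agent.H96.P171

/-- The partition function of the closed box of side `l` is at most `exp((l+1)^3 Fp)`. -/
lemma lp4_Xi_box_le (t2 : ℕ → ℝ) (h2 : Adm t2) (m : ℝ) (l : ℕ) (hl : 0 < l) :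
    Xi (box (l : ℝ)) m t2 ≤ ENNReal.ofReal (Real.exp (((l : ℝ) + 1) ^ 3 * Fp m t2)) := by
  have hne : Xi (box (l : ℝ)) m t2 ≠ ⊤ := Xi_ne_top t2 h2 m (l : ℝ) (Nat.cast_nonneg l)
  have h1 : 1 ≤ Xi (box (l : ℝ)) m t2 := one_le_Xi _ _ _
  have hpos : 0 < (Xi (box (l : ℝ)) m t2).toReal := by
    have h3 := ENNReal.toReal_mono hne h1
    rw [ENNReal.toReal_one] at h3
    linarith
  have hlog : logXi (l : ℝ) m t2 ≤ ((l : ℝ) + 1) ^ 3 * Fp m t2 := by
    have h := logXi_le_Fp t2 h2 m (l - 1)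
    have hc : (((l - 1 : ℕ) : ℝ)) = (l : ℝ) - 1 := by
      rw [Nat.cast_sub hl]; simp
    rw [hc] at h
    have e1 : (l : ℝ) - 1 + 1 = l := by ring
    have e2 : (l : ℝ) - 1 + 2 = l + 1 := by ring
    rw [e1, e2] at h
    exact h
  calc Xi (box (l : ℝ)) m t2 = ENNReal.ofReal ((Xi (box (l : ℝ)) m t2).toReal) :=
        (ENNReal.ofReal_toReal hne).symm
    _ = ENNReal.ofReal (Real.exp (logXi (l : ℝ) m t2)) := by
        unfold logXi; rw [Real.exp_log hpos]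
    _ ≤ _ := ENNReal.ofReal_le_ofReal (Real.exp_le_exp.mpr hlog)

/-- One term of the `j`-sum. -/
lemma lp4_term (t2 : ℕ → ℝ) (h2 : Adm t2) (μ γ : ℝ) (l : ℕ) (hl : 0 < l) (j : ℕ) :
    Vale.Agent.H27.PF.Xi volume
        (fun p => ENNReal.ofReal (Real.exp μ) * ENNReal.ofReal (Real.exp (2 * γ * j)) *
          (Vale.Agent.H79.LP.cell l 0 0).indicator (fun _ => (1 : ℝ≥0∞)) p)
        (Vale.Agent.H4.P171.pairFactor (Phi t2))
      ≤ ENNReal.ofReal (Real.exp (((l : ℝ) + 1) ^ 3 * Fp (μ + 2 * γ * j) t2)) := by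
  have h1 : (fun p => ENNReal.ofReal (Real.exp μ) * ENNReal.ofReal (Real.exp (2 * γ * j)) *
          (Vale.Agent.H79.LP.cell l 0 0).indicator (fun _ => (1 : ℝ≥0∞)) p)
      = Vale.Agent.H4.P171.oneBody (Vale.Agent.H79.LP.cell l 0 0) (μ + 2 * γ * j) := by
    funext p
    unfold Vale.Agent.H4.P171.oneBody
    by_cases hp : p ∈ Vale.Agent.H79.LP.cell l 0 0
    · rw [Set.indicator_of_mem hp, Set.indicator_of_mem hp, mul_one, Real.exp_add,
        ENNReal.ofReal_mul (Real.exp_pos _).le]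
    · rw [Set.indicator_of_notMem hp, Set.indicator_of_notMem hp, mul_zero]
  rw [h1, ← Vale.Agent.H4.P171.Xi_eq_PF]
  refine le_trans ?_ (lp4_Xi_box_le t2 h2 (μ + 2 * γ * j) l hl)
  exact gInt_mono_set _ _ (Vale.Agent.H79.LP.cell_zero_subset_box l hl) _

/-- LP4, exponentiated form. -/
theorem lp4_ennreal (t t2 : ℕ → ℝ) (ht : Adm t) (h2 : Adm t2) (μ γ : ℝ) (l : ℕ) (hl : 0 < l)
    (hLP2 : ∀ K : ℕ,
      Vale.Agent.H27.PF.Xi volume
          ((Vale.Agent.H79.LP.box ((K : ℝ) * (l : ℝ))).indicator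
            fun _ => ENNReal.ofReal (Real.exp μ))
          (Vale.Agent.H4.P171.pairFactor (Phi t))
        ≤ (Vale.Agent.H27.PF.Xi volume
            ((Vale.Agent.H79.LP.cell l 0 0).indicator
              fun _ => ENNReal.ofReal (Real.exp μ) * ENNReal.ofReal (Real.exp γ))
            (fun x y => ENNReal.ofReal (Real.exp γ) *
              Vale.Agent.H4.P171.pairFactor (Phi t2) x y)) ^ ((K + 2) ^ 3)) :
    ENNReal.ofReal (Real.exp ((l : ℝ) ^ 3 * Fp μ t)) ≤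
      ∑' j : ℕ, ENNReal.ofReal (Real.exp (-(γ * (j : ℝ) ^ 2)
        + ((l : ℝ) + 1) ^ 3 * Fp (μ + 2 * γ * (j : ℝ)) t2)) := by
  set S : ℝ≥0∞ := ∑' j : ℕ, ENNReal.ofReal (Real.exp (-(γ * (j : ℝ) ^ 2)
        + ((l : ℝ) + 1) ^ 3 * Fp (μ + 2 * γ * (j : ℝ)) t2)) with hS
  set B : ℝ≥0∞ := Vale.Agent.H27.PF.Xi volume
            ((Vale.Agent.H79.LP.cell l 0 0).indicator
              fun _ => ENNReal.ofReal (Real.exp μ) * ENNReal.ofReal (Real.exp γ))
            (fun x y => ENNReal.ofReal (Real.exp γ) *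
              Vale.Agent.H4.P171.pairFactor (Phi t2) x y) with hB
  have hBS : B ≤ S := by
    have hfun : ((Vale.Agent.H79.LP.cell l 0 0).indicator
              fun _ => ENNReal.ofReal (Real.exp μ) * ENNReal.ofReal (Real.exp γ))
        = fun p => ENNReal.ofReal (Real.exp μ) * ENNReal.ofReal (Real.exp γ) *
            (Vale.Agent.H79.LP.cell l 0 0).indicator (fun _ => (1 : ℝ≥0∞)) p := by
      funext p
      by_cases hp : p ∈ Vale.Agent.H79.LP.cell l 0 0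
      · rw [Set.indicator_of_mem hp, Set.indicator_of_mem hp, mul_one]
      · rw [Set.indicator_of_notMem hp, Set.indicator_of_notMem hp, mul_zero]
    rw [hB, hfun]
    refine le_trans (Vale.Agent.H72.P171.Xi_jtrick volume (ENNReal.ofReal (Real.exp μ))
      ENNReal.ofReal_ne_top γ _ _) ?_
    rw [hS]
    refine ENNReal.tsum_le_tsum fun j => ?_
    rw [Real.exp_add, ENNReal.ofReal_mul (Real.exp_pos _).le]
    exact mul_le_mul' le_rfl (lp4_term t2 h2 μ γ l hl j)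
  by_cases hStop : S = ⊤
  · rw [hStop]; exact le_top
  have hB1 : 1 ≤ B := Vale.Agent.H27.PF.one_le_Xi volume _ _
  have hS1 : 1 ≤ S := le_trans hB1 hBS
  have hSr1 : 1 ≤ S.toReal := by
    have h3 := ENNReal.toReal_mono hStop hS1
    rw [ENNReal.toReal_one] at h3
    exact h3
  have hK : ∀ K : ℕ, logXi ((K : ℝ) * (l : ℝ)) μ t ≤ ((K : ℝ) + 2) ^ 3 * Real.log S.toReal := by
    intro K
    have h1 : Xi (box ((K : ℝ) * (l : ℝ))) μ t ≤ S ^ ((K + 2) ^ 3) := by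
      rw [Vale.Agent.H4.P171.Xi_eq_PF]
      exact le_trans (hLP2 K) (pow_le_pow_left' hBS _)
    have hne : S ^ ((K + 2) ^ 3) ≠ ⊤ := ENNReal.pow_ne_top hStop
    have h2' : (Xi (box ((K : ℝ) * (l : ℝ))) μ t).toReal ≤ (S ^ ((K + 2) ^ 3)).toReal :=
      ENNReal.toReal_mono hne h1
    have h3 : 1 ≤ Xi (box ((K : ℝ) * (l : ℝ))) μ t := one_le_Xi _ _ _
    have hpos : 0 < (Xi (box ((K : ℝ) * (l : ℝ))) μ t).toReal := by
      have hne' : Xi (box ((K : ℝ) * (l : ℝ))) μ t ≠ ⊤ := ne_top_of_le_ne_top hne h1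
      have h4 := ENNReal.toReal_mono hne' h3
      rw [ENNReal.toReal_one] at h4
      linarith
    unfold logXi
    calc Real.log (Xi (box ((K : ℝ) * (l : ℝ))) μ t).toReal
          ≤ Real.log ((S ^ ((K + 2) ^ 3)).toReal) := Real.log_le_log hpos h2'
      _ = ((K : ℝ) + 2) ^ 3 * Real.log S.toReal := by
          rw [ENNReal.toReal_pow, Real.log_pow]; push_cast; ring
  have hl' : (0 : ℝ) < (l : ℝ) := by exact_mod_cast hl
  have hlim1 : Tendsto (fun K : ℕ => logXi ((K : ℝ) * (l : ℝ)) μ t / ((K : ℝ) * (l : ℝ)) ^ 3)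
      atTop (𝓝 (Fp μ t)) := by
    have h1 := tendsto_pressure t ht μ
    have h2 : Tendsto (fun K : ℕ => (K : ℝ) * (l : ℝ)) atTop atTop :=
      Tendsto.atTop_mul_const hl' tendsto_natCast_atTop_atTop
    exact h1.comp h2
  have hlim2 : Tendsto (fun K : ℕ => ((K : ℝ) + 2) ^ 3 * Real.log S.toReal /
      ((K : ℝ) * (l : ℝ)) ^ 3) atTop (𝓝 (Real.log S.toReal / (l : ℝ) ^ 3)) := by
    have h1 : Tendsto (fun K : ℕ => (1 + 2 / (K : ℝ)) ^ 3 * (Real.log S.toReal / (l : ℝ) ^ 3))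
        atTop (𝓝 ((1 + 0) ^ 3 * (Real.log S.toReal / (l : ℝ) ^ 3))) := by
      have h0 : Tendsto (fun K : ℕ => 2 / (K : ℝ)) atTop (𝓝 0) :=
        tendsto_const_div_atTop_nhds_zero_nat 2
      exact ((tendsto_const_nhds.add h0).pow 3).mul_const _
    have h2 : (1 + (0 : ℝ)) ^ 3 * (Real.log S.toReal / (l : ℝ) ^ 3)
        = Real.log S.toReal / (l : ℝ) ^ 3 := by ring
    rw [h2] at h1
    refine Tendsto.congr' ?_ h1
    filter_upwards [eventually_ge_atTop 1] with K hK1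
    have hK0 : (0 : ℝ) < (K : ℝ) := by exact_mod_cast hK1
    field_simp
  have hle : Fp μ t ≤ Real.log S.toReal / (l : ℝ) ^ 3 := by
    refine le_of_tendsto_of_tendsto hlim1 hlim2 ?_
    filter_upwards [eventually_ge_atTop 1] with K hK1
    have hK0 : (0 : ℝ) < (K : ℝ) := by exact_mod_cast hK1
    have hden : 0 < ((K : ℝ) * (l : ℝ)) ^ 3 := by positivity
    exact div_le_div_of_nonneg_right (hK K) hden.le
  have hfin : (l : ℝ) ^ 3 * Fp μ t ≤ Real.log S.toReal := by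
    have hl3 : 0 < (l : ℝ) ^ 3 := by positivity
    rw [le_div_iff₀ hl3] at hle
    linarith
  calc ENNReal.ofReal (Real.exp ((l : ℝ) ^ 3 * Fp μ t))
        ≤ ENNReal.ofReal (Real.exp (Real.log S.toReal)) :=
        ENNReal.ofReal_le_ofReal (Real.exp_le_exp.mpr hfin)
    _ = ENNReal.ofReal S.toReal := by rw [Real.exp_log (by linarith)]
    _ = S := ENNReal.ofReal_toReal hStop

/-- The real series of the claim is summable (quadratic growth bound of the pressure). -/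
lemma lp4_summable (t2 : ℕ → ℝ) (h2 : Adm t2) (μ γ : ℝ) (hγ : 0 < γ) (l : ℕ) :
    Summable fun j : ℕ => Real.exp (-(γ * (j : ℝ) ^ 2)
        + ((l : ℝ) + 1) ^ 3 * Fp (μ + 2 * γ * (j : ℝ)) t2) := by
  have hL : 0 < ((l : ℝ) + 1) ^ 3 := by positivity
  set A : ℝ := 4 * γ * ((l : ℝ) + 1) ^ 3 with hA
  have hA0 : 0 < A := by positivity
  obtain ⟨C, hC⟩ := growth (∑' n, t2 n) A hA0
  have hg := hC t2 h2 le_rfl
  set c0 : ℝ := ((l : ℝ) + 1) ^ 3 * (1 + 2 * (μ + C) ^ 2 / (4 * A)) with hc0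
  have hbound : ∀ j : ℕ, Real.exp (-(γ * (j : ℝ) ^ 2)
      + ((l : ℝ) + 1) ^ 3 * Fp (μ + 2 * γ * (j : ℝ)) t2)
      ≤ Real.exp c0 * (Real.exp (-(γ / 2))) ^ j := by
    intro j
    rw [← Real.exp_nat_mul, ← Real.exp_add]
    apply Real.exp_le_exp.mpr
    have hj0 : (0 : ℝ) ≤ (j : ℝ) := Nat.cast_nonneg j
    have hjj : (j : ℝ) ≤ (j : ℝ) ^ 2 := by
      rcases Nat.eq_zero_or_pos j with h0 | h0
      · subst h0; simp
      · have : (1 : ℝ) ≤ (j : ℝ) := by exact_mod_cast h0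
        nlinarith
    have h1 := hg (μ + 2 * γ * (j : ℝ))
    have hmax : (max (μ + 2 * γ * (j : ℝ) + C) 0) ^ 2
        ≤ 2 * (μ + C) ^ 2 + 8 * γ ^ 2 * (j : ℝ) ^ 2 := by
      rcases le_total (μ + 2 * γ * (j : ℝ) + C) 0 with h | h
      · rw [max_eq_right h]; nlinarith [sq_nonneg (μ + C), sq_nonneg (γ * (j : ℝ))]
      · rw [max_eq_left h]; nlinarith [sq_nonneg (μ + C - 2 * γ * (j : ℝ))]
    have h2' : Fp (μ + 2 * γ * (j : ℝ)) t2
        ≤ 1 + (2 * (μ + C) ^ 2 + 8 * γ ^ 2 * (j : ℝ) ^ 2) / (4 * A) := by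
      refine le_trans h1 ?_
      have : (max (μ + 2 * γ * (j : ℝ) + C) 0) ^ 2 / (4 * A)
          ≤ (2 * (μ + C) ^ 2 + 8 * γ ^ 2 * (j : ℝ) ^ 2) / (4 * A) :=
        div_le_div_of_nonneg_right hmax (by positivity)
      linarith
    have h3 : ((l : ℝ) + 1) ^ 3 * Fp (μ + 2 * γ * (j : ℝ)) t2
        ≤ ((l : ℝ) + 1) ^ 3 * (1 + (2 * (μ + C) ^ 2 + 8 * γ ^ 2 * (j : ℝ) ^ 2) / (4 * A)) :=
      mul_le_mul_of_nonneg_left h2' hL.le
    have h4 : ((l : ℝ) + 1) ^ 3 * (1 + (2 * (μ + C) ^ 2 + 8 * γ ^ 2 * (j : ℝ) ^ 2) / (4 * A))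
        = c0 + γ * (j : ℝ) ^ 2 / 2 := by
      rw [hc0, hA]; field_simp; ring
    have h5 : γ * (j : ℝ) ≤ γ * (j : ℝ) ^ 2 := mul_le_mul_of_nonneg_left hjj hγ.le
    linarith
  refine Summable.of_nonneg_of_le (fun j => (Real.exp_pos _).le) hbound ?_
  exact (summable_geometric_of_lt_one (Real.exp_pos _).le
    (Real.exp_lt_one_iff.mpr (by linarith))).mul_left _

/-- LP4, real form (the series is summable). -/
theorem lp4_real (t t2 : ℕ → ℝ) (ht : Adm t) (h2 : Adm t2) (μ γ : ℝ) (hγ : 0 < γ) (l : ℕ)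
    (hl : 0 < l)
    (hLP2 : ∀ K : ℕ,
      Vale.Agent.H27.PF.Xi volume
          ((Vale.Agent.H79.LP.box ((K : ℝ) * (l : ℝ))).indicator
            fun _ => ENNReal.ofReal (Real.exp μ))
          (Vale.Agent.H4.P171.pairFactor (Phi t))
        ≤ (Vale.Agent.H27.PF.Xi volume
            ((Vale.Agent.H79.LP.cell l 0 0).indicator
              fun _ => ENNReal.ofReal (Real.exp μ) * ENNReal.ofReal (Real.exp γ))
            (fun x y => ENNReal.ofReal (Real.exp γ) *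
              Vale.Agent.H4.P171.pairFactor (Phi t2) x y)) ^ ((K + 2) ^ 3)) :
    Fp μ t ≤ (l : ℝ) ^ (-3 : ℤ) * Real.log (∑' j : ℕ, Real.exp (-(γ * (j : ℝ) ^ 2)
        + ((l : ℝ) + 1) ^ 3 * Fp (μ + 2 * γ * (j : ℝ)) t2)) := by
  have hE := lp4_ennreal t t2 ht h2 μ γ l hl hLP2
  have hsum := lp4_summable t2 h2 μ γ hγ l
  rw [← ENNReal.ofReal_tsum_of_nonneg (fun j => (Real.exp_pos _).le) hsum] at hE
  have hpos : 0 < ∑' j : ℕ, Real.exp (-(γ * (j : ℝ) ^ 2)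
      + ((l : ℝ) + 1) ^ 3 * Fp (μ + 2 * γ * (j : ℝ)) t2) :=
    lt_of_lt_of_le (Real.exp_pos _) (hsum.le_tsum 0 (fun j _ => (Real.exp_pos _).le))
  have h1 := (ENNReal.ofReal_le_ofReal_iff hpos.le).mp hE
  have h3 : (l : ℝ) ^ 3 * Fp μ t ≤ Real.log (∑' j : ℕ, Real.exp (-(γ * (j : ℝ) ^ 2)
      + ((l : ℝ) + 1) ^ 3 * Fp (μ + 2 * γ * (j : ℝ)) t2)) := by
    have h4 := Real.log_le_log (Real.exp_pos _) h1
    rwa [Real.log_exp] at h4
  have hl' : (0 : ℝ) < (l : ℝ) := by exact_mod_cast hl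
  have hl3 : 0 < (l : ℝ) ^ 3 := by positivity
  rw [zpow_neg, zpow_ofNat, inv_mul_eq_div, le_div_iff₀ hl3]
  linarith

/-- LP4 in the spelling of the hypothesis `hclaim` of `Vale.Agent.Lead.P171.lp5_core`
(`γ = s / l^3`). -/
theorem lp4_hclaim (t t2 : ℕ → ℝ) (ht : Adm t) (h2 : Adm t2) (μ s : ℝ) (hs : 0 < s) (l : ℕ)
    (hl : 0 < l)
    (hLP2 : ∀ K : ℕ,
      Vale.Agent.H27.PF.Xi volume
          ((Vale.Agent.H79.LP.box ((K : ℝ) * (l : ℝ))).indicator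
            fun _ => ENNReal.ofReal (Real.exp μ))
          (Vale.Agent.H4.P171.pairFactor (Phi t))
        ≤ (Vale.Agent.H27.PF.Xi volume
            ((Vale.Agent.H79.LP.cell l 0 0).indicator
              fun _ => ENNReal.ofReal (Real.exp μ) * ENNReal.ofReal (Real.exp (s / (l : ℝ) ^ 3)))
            (fun x y => ENNReal.ofReal (Real.exp (s / (l : ℝ) ^ 3)) *
              Vale.Agent.H4.P171.pairFactor (Phi t2) x y)) ^ ((K + 2) ^ 3)) :
    Fp μ t ≤ (l : ℝ) ^ (-3 : ℤ) * Real.log (∑' j : ℕ,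
      Real.exp (-s * (j : ℝ) ^ 2 / (l : ℝ) ^ 3
        + ((l : ℝ) + 1) ^ 3 * Fp (μ + 2 * s * (j : ℝ) / (l : ℝ) ^ 3) t2)) := by
  have hl' : (0 : ℝ) < (l : ℝ) := by exact_mod_cast hl
  have h := lp4_real t t2 ht h2 μ (s / (l : ℝ) ^ 3) (div_pos hs (pow_pos hl' 3)) l hl hLP2
  have e : ∀ j : ℕ, Real.exp (-(s / (l : ℝ) ^ 3 * (j : ℝ) ^ 2)
      + ((l : ℝ) + 1) ^ 3 * Fp (μ + 2 * (s / (l : ℝ) ^ 3) * (j : ℝ)) t2)
      = Real.exp (-s * (j : ℝ) ^ 2 / (l : ℝ) ^ 3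
        + ((l : ℝ) + 1) ^ 3 * Fp (μ + 2 * s * (j : ℝ) / (l : ℝ) ^ 3) t2) := by
    intro j
    have e1 : -(s / (l : ℝ) ^ 3 * (j : ℝ) ^ 2) = -s * (j : ℝ) ^ 2 / (l : ℝ) ^ 3 := by ring
    have e2 : μ + 2 * (s / (l : ℝ) ^ 3) * (j : ℝ) = μ + 2 * s * (j : ℝ) / (l : ℝ) ^ 3 := by ring
    rw [e1, e2]
  rw [tsum_congr e] at h
  exact h

end Vale.Agent.H22.P171
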